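import Mathlib

/-!
# P018: the sieve upper bound for power-free values of an integer polynomial

Conventions of the problem file: an integer `a` is `k`-power-free when no prime `k`-th power
divides it; `rho f q` counts the residues `a` modulo `q` with `f a ≡ 0 (mod q)`; `countFree f k X`
counts the `1 ≤ n ≤ X` with `f n` `k`-power-free.
-/

namespace Vale.Agent.P018

open Polynomial Finset

/-- `a` is `k`-power-free: no prime `k`-th power divides `a`. -/
def IsPowerFree (k : ℕ) (a : ℤ) : Prop := ∀ p : ℕ, p.Prime → ¬ ((p : ℤ) ^ k ∣ a)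

/-- `rho f q`: the number of residues `a` modulo `q` (represented by `0 ≤ a < q`) with
`q ∣ f a`. -/
noncomputable def rho (f : ℤ[X]) (q : ℕ) : ℕ :=
  Set.ncard {a : ℕ | a < q ∧ (q : ℤ) ∣ f.eval (a : ℤ)}

/-- `countFree f k X`: the number of `1 ≤ n ≤ X` such that `f n` is `k`-power-free. -/
noncomputable def countFree (f : ℤ[X]) (k X : ℕ) : ℕ :=
  Set.ncard {n : ℕ | 1 ≤ n ∧ n ≤ X ∧ IsPowerFree k (f.eval (n : ℤ))}

/-- Evaluating the reduction of `f` at the class of `n`. -/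
theorem eval_cast (f : ℤ[X]) (q n : ℕ) :
    (f.map (Int.castRingHom (ZMod q))).eval (n : ZMod q) = ((f.eval (n : ℤ) : ℤ) : ZMod q) := by
  have h := Polynomial.eval_intCast_map (Int.castRingHom (ZMod q)) f (n : ℤ)
  rw [Int.cast_natCast] at h
  rw [h]
  rfl

theorem eval_cast_eq_zero_iff (f : ℤ[X]) (q n : ℕ) :
    (f.map (Int.castRingHom (ZMod q))).eval (n : ZMod q) = 0 ↔ (q : ℤ) ∣ f.eval (n : ℤ) := by
  rw [eval_cast, ZMod.intCast_zmod_eq_zero_iff_dvd]

/-- The number of roots of `f` in `ZMod q` is `rho f q`. -/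
theorem card_roots_zmod (f : ℤ[X]) (q : ℕ) [NeZero q] :
    (univ.filter (fun x : ZMod q => (f.map (Int.castRingHom (ZMod q))).eval x = 0)).card
      = rho f q := by
  classical
  have hset : {a : ℕ | a < q ∧ (q : ℤ) ∣ f.eval (a : ℤ)}
      = ↑((range q).filter (fun a : ℕ => (q : ℤ) ∣ f.eval (a : ℤ))) := by
    ext a
    simp
  unfold rho
  rw [hset, Set.ncard_coe_finset]
  refine Finset.card_bij (fun x _ => x.val) ?_ ?_ ?_
  · intro x hx
    simp only [mem_filter, mem_univ, true_and] at hx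
    simp only [mem_filter, mem_range]
    refine ⟨ZMod.val_lt x, ?_⟩
    rw [← eval_cast_eq_zero_iff, ZMod.natCast_zmod_val]
    exact hx
  · intro x _ y _ hxy
    exact ZMod.val_injective q hxy
  · intro a ha
    simp only [mem_filter, mem_range] at ha
    refine ⟨(a : ZMod q), ?_, ?_⟩
    · simp only [mem_filter, mem_univ, true_and]
      rw [eval_cast_eq_zero_iff]
      exact ha.2
    · exact ZMod.val_natCast_of_lt ha.1

/-- The number of non-roots of `f` in `ZMod q`. -/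
theorem card_nonroots_zmod (f : ℤ[X]) (q : ℕ) [NeZero q] :
    (univ.filter (fun x : ZMod q => (f.map (Int.castRingHom (ZMod q))).eval x ≠ 0)).card
      + rho f q = q := by
  classical
  rw [← card_roots_zmod f q]
  have h := Finset.card_filter_add_card_filter_not (s := (univ : Finset (ZMod q)))
    (p := fun x : ZMod q => (f.map (Int.castRingHom (ZMod q))).eval x = 0)
  rw [Finset.card_univ, ZMod.card] at h
  have h2 : (univ.filter (fun x : ZMod q =>
        (f.map (Int.castRingHom (ZMod q))).eval x ≠ 0)).card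
      = (univ.filter (fun a : ZMod q =>
        ¬ (f.map (Int.castRingHom (ZMod q))).eval a = 0)).card := by
    congr
  rw [h2]
  omega

/-- The counting step: the integers `1 ≤ n ≤ X` whose class modulo `M` lies in `G` number at
most `|G| (X / M + 1)`. -/
theorem count_residues (M : ℕ) [NeZero M] (G : Finset (ZMod M)) (S : Finset ℕ) (X : ℕ)
    (hS : ∀ n ∈ S, n ≤ X ∧ (n : ZMod M) ∈ G) :
    S.card ≤ G.card * (X / M + 1) := by
  classical
  have hle : S.card ≤ (G ×ˢ range (X / M + 1)).card := by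
    apply Finset.card_le_card_of_injOn (fun n : ℕ => ((n : ZMod M), n / M))
    · intro n hn
      have h := hS n hn
      simp only [Finset.coe_product, Set.mem_prod, Finset.mem_coe, mem_range]
      exact ⟨h.2, Nat.lt_succ_of_le (Nat.div_le_div_right h.1)⟩
    · intro x _ y _ hxy
      simp only [Prod.mk.injEq] at hxy
      have h1 : x % M = y % M := (ZMod.natCast_eq_natCast_iff' x y M).mp hxy.1
      have h2 : x / M = y / M := hxy.2
      calc x = M * (x / M) + x % M := (Nat.div_add_mod x M).symm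
        _ = M * (y / M) + y % M := by rw [h1, h2]
        _ = y := Nat.div_add_mod y M
  rw [Finset.card_product, Finset.card_range] at hle
  exact hle

/-- The sieve upper bound in natural numbers: with `M = ∏_{p ∈ T} p^k`,
`countFree f k X ≤ (∏_{p ∈ T} (p^k - rho f (p^k))) * (X / M + 1)`. -/
theorem sieve_nat (f : ℤ[X]) (k : ℕ) (T : Finset ℕ) (hT : ∀ p ∈ T, p.Prime) (X : ℕ) :
    countFree f k X
      ≤ (∏ p ∈ T, (p ^ k - rho f (p ^ k))) * (X / (∏ p ∈ T, p ^ k) + 1) := by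
  classical
  let a : T → ℕ := fun p => (p : ℕ) ^ k
  have ha_ne : ∀ i, a i ≠ 0 := fun i => pow_ne_zero k (hT i i.2).ne_zero
  have hcop : Pairwise (Function.onFun Nat.Coprime a) := by
    intro i j hij
    show Nat.Coprime ((i : ℕ) ^ k) ((j : ℕ) ^ k)
    apply Nat.Coprime.pow
    exact (Nat.coprime_primes (hT i i.2) (hT j j.2)).mpr (fun h => hij (Subtype.ext h))
  have hMne : (∏ i, a i) ≠ 0 := Finset.prod_ne_zero_iff.mpr (fun i _ => ha_ne i)
  have : NeZero (∏ i, a i) := ⟨hMne⟩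
  have : ∀ i, NeZero (a i) := fun i => ⟨ha_ne i⟩
  let e := ZMod.prodEquivPi a hcop
  let B : ∀ i, Finset (ZMod (a i)) := fun i =>
    univ.filter (fun x => (f.map (Int.castRingHom (ZMod (a i)))).eval x ≠ 0)
  let G : Finset (ZMod (∏ i, a i)) := (Fintype.piFinset B).map e.symm.toEquiv.toEmbedding
  -- the set of good `n`
  let S : Finset ℕ := (Icc 1 X).filter (fun n : ℕ => IsPowerFree k (f.eval (n : ℤ)))
  have hcount : countFree f k X = S.card := by
    unfold countFree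
    have hset : {n : ℕ | 1 ≤ n ∧ n ≤ X ∧ IsPowerFree k (f.eval (n : ℤ))} = ↑S := by
      ext n
      simp [S, and_assoc]
    rw [hset, Set.ncard_coe_finset]
  have hS : ∀ n ∈ S, n ≤ X ∧ (n : ZMod (∏ i, a i)) ∈ G := by
    intro n hn
    simp only [S, mem_filter, mem_Icc] at hn
    refine ⟨hn.1.2, ?_⟩
    rw [Finset.mem_map_equiv, Fintype.mem_piFinset]
    intro i
    have hei : e.symm.toEquiv.symm (n : ZMod (∏ i, a i)) i = (n : ZMod (a i)) := by
      show e (n : ZMod (∏ i, a i)) i = (n : ZMod (a i))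
      rw [ZMod.prodEquivPi_apply, map_natCast]
    rw [hei]
    simp only [B, mem_filter, mem_univ, true_and]
    rw [Ne, eval_cast_eq_zero_iff]
    have hp := hn.2 (i : ℕ) (hT i i.2)
    simpa [a] using hp
  have h1 := count_residues (∏ i, a i) G S X hS
  have hG : G.card = ∏ i, (B i).card := by
    rw [Finset.card_map, Fintype.card_piFinset]
  have hB : ∀ i, (B i).card = a i - rho f (a i) := by
    intro i
    have := card_nonroots_zmod f (a i)
    simp only [B]
    omega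
  have hprod1 : ∏ i, (B i).card = ∏ p ∈ T, (p ^ k - rho f (p ^ k)) := by
    simp only [hB]
    exact Finset.prod_coe_sort T (fun p => p ^ k - rho f (p ^ k))
  have hprod2 : ∏ i, a i = ∏ p ∈ T, p ^ k :=
    Finset.prod_coe_sort T (fun p => p ^ k)
  rw [hcount]
  rw [hG, hprod1, hprod2] at h1
  exact h1

theorem rho_le (f : ℤ[X]) (q : ℕ) (hq : q ≠ 0) : rho f q ≤ q := by
  have : NeZero q := ⟨hq⟩
  have := card_nonroots_zmod f q
  omega

/-- The sieve upper bound: for every finite set `T` of primes,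
`countFree f k X ≤ X ∏_{p ∈ T} (1 - rho f (p^k) / p^k) + ∏_{p ∈ T} p^k`. -/
theorem sieve_real (f : ℤ[X]) (k : ℕ) (T : Finset ℕ) (hT : ∀ p ∈ T, p.Prime) (X : ℕ) :
    (countFree f k X : ℝ)
      ≤ X * ∏ p ∈ T, (1 - (rho f (p ^ k) : ℝ) / (p : ℝ) ^ k) + ∏ p ∈ T, (p : ℝ) ^ k := by
  have hρ : ∀ p ∈ T, rho f (p ^ k) ≤ p ^ k := fun p hp =>
    rho_le f (p ^ k) (pow_ne_zero k (hT p hp).ne_zero)
  have hN : ((∏ p ∈ T, (p ^ k - rho f (p ^ k)) : ℕ) : ℝ)
      = ∏ p ∈ T, ((p : ℝ) ^ k - rho f (p ^ k)) := by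
    rw [Nat.cast_prod]
    apply Finset.prod_congr rfl
    intro p hp
    rw [Nat.cast_sub (hρ p hp)]
    push_cast
    ring
  have hM : ((∏ p ∈ T, p ^ k : ℕ) : ℝ) = ∏ p ∈ T, (p : ℝ) ^ k := by
    push_cast
    rfl
  have hpk : ∀ p ∈ T, (0 : ℝ) < (p : ℝ) ^ k := fun p hp =>
    pow_pos (Nat.cast_pos.mpr (hT p hp).pos) k
  have hMpos : 0 < ∏ p ∈ T, (p : ℝ) ^ k := Finset.prod_pos hpk
  have hfrac : ∏ p ∈ T, (1 - (rho f (p ^ k) : ℝ) / (p : ℝ) ^ k)
      = (∏ p ∈ T, ((p : ℝ) ^ k - rho f (p ^ k))) / ∏ p ∈ T, (p : ℝ) ^ k := by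
    rw [← Finset.prod_div_distrib]
    apply Finset.prod_congr rfl
    intro p hp
    have := (hpk p hp).ne'
    field_simp
  have hN0 : 0 ≤ ∏ p ∈ T, ((p : ℝ) ^ k - rho f (p ^ k)) :=
    Finset.prod_nonneg (fun p hp => sub_nonneg.mpr (by exact_mod_cast hρ p hp))
  have hNM : ∏ p ∈ T, ((p : ℝ) ^ k - rho f (p ^ k)) ≤ ∏ p ∈ T, (p : ℝ) ^ k :=
    Finset.prod_le_prod (fun p hp => sub_nonneg.mpr (by exact_mod_cast hρ p hp))
      (fun p hp => by linarith [Nat.cast_nonneg (α := ℝ) (rho f (p ^ k))])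
  have h1 : (countFree f k X : ℝ)
      ≤ (((∏ p ∈ T, (p ^ k - rho f (p ^ k))) * (X / (∏ p ∈ T, p ^ k) + 1) : ℕ) : ℝ) := by
    exact_mod_cast sieve_nat f k T hT X
  have h2 : ((X / (∏ p ∈ T, p ^ k) : ℕ) : ℝ) ≤ (X : ℝ) / ∏ p ∈ T, (p : ℝ) ^ k := by
    rw [← hM]
    exact Nat.cast_div_le
  rw [Nat.cast_mul, hN] at h1
  push_cast at h1
  rw [hfrac]
  have h3 : (∏ p ∈ T, ((p : ℝ) ^ k - rho f (p ^ k)))
        * (((X / (∏ p ∈ T, p ^ k) : ℕ) : ℝ) + 1)
      ≤ (∏ p ∈ T, ((p : ℝ) ^ k - rho f (p ^ k)))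
        * ((X : ℝ) / ∏ p ∈ T, (p : ℝ) ^ k + 1) :=
    mul_le_mul_of_nonneg_left (by linarith) hN0
  have h4 : (∏ p ∈ T, ((p : ℝ) ^ k - rho f (p ^ k)))
        * ((X : ℝ) / ∏ p ∈ T, (p : ℝ) ^ k + 1)
      = X * ((∏ p ∈ T, ((p : ℝ) ^ k - rho f (p ^ k))) / ∏ p ∈ T, (p : ℝ) ^ k)
        + ∏ p ∈ T, ((p : ℝ) ^ k - rho f (p ^ k)) := by
    ring
  have h5 : ((∏ p ∈ T, (p ^ k : ℕ) : ℕ) : ℝ) = ∏ p ∈ T, (p : ℝ) ^ k := hM
  have h1' : (countFree f k X : ℝ) ≤ (∏ p ∈ T, ((p : ℝ) ^ k - rho f (p ^ k)))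
        * (((X / (∏ p ∈ T, p ^ k) : ℕ) : ℝ) + 1) := by
    convert h1 using 2
  linarith

end Vale.Agent.P018
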